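-- helper76: S0148 as a corollary of the data produced by S0150 (row 113; the row is incomplete, S0149 is open).
-- `good_of_data` : the operator S of S0150 is quasinilpotent, nonzero and has no hyperinvariant subspace
-- (V and all bounded multipliers commute with S); `Good.transport` + `exists_iso` move it to any separable
-- infinite-dimensional complex Hilbert space.
import Mathlib
import Crest.Prelude.Def_TwoAdicShift

set_option autoImplicit false
open Filter Topology MeasureTheory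
open Crest.AnalysisR.TwoAdic
open scoped ENNReal
attribute [local instance] Crest.AnalysisR.TwoAdic.borelTwoAdic Crest.AnalysisR.TwoAdic.borelSpace_twoAdic

namespace Crest.Agent.S0148Aux

section Abstract

variable {H F : Type*} [NormedAddCommGroup H] [InnerProductSpace ℂ H] [CompleteSpace H]
  [NormedAddCommGroup F] [InnerProductSpace ℂ F] [CompleteSpace F]

/-- the property asked for in S0148. -/
def Good (E : Type*) [NormedAddCommGroup E] [InnerProductSpace ℂ E] : Prop :=
  ∃ T : E →L[ℂ] E, T ≠ 0 ∧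
      Tendsto (fun n : ℕ => ‖T ^ n‖ ^ (1 / (n : ℝ))) atTop (𝓝 0) ∧
      ∀ V : Submodule ℂ E, IsClosed (V : Set E) →
        (∀ A : E →L[ℂ] E, A * T = T * A → ∀ v ∈ V, A v ∈ V) → V = ⊥ ∨ V = ⊤

theorem Good.transport (U : H ≃ₗᵢ[ℂ] F) (h : Good F) : Good H := by
  obtain ⟨S, hS0, hSn, hS⟩ := h
  let Φ := U.symm.conjStarAlgEquiv
  have hΦ : ∀ (X : F →L[ℂ] F) (y : H), Φ X y = U.symm (X (U y)) := fun X y => rfl
  have hnorm : ∀ X : F →L[ℂ] F, ‖Φ X‖ ≤ ‖X‖ := by
    intro X
    apply ContinuousLinearMap.opNorm_le_bound _ (norm_nonneg _)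
    intro y
    rw [hΦ, LinearIsometryEquiv.norm_map]
    calc ‖X (U y)‖ ≤ ‖X‖ * ‖U y‖ := X.le_opNorm _
      _ = ‖X‖ * ‖y‖ := by rw [LinearIsometryEquiv.norm_map]
  refine ⟨Φ S, ?_, ?_, ?_⟩
  · exact (map_ne_zero_iff Φ Φ.injective).mpr hS0
  · apply squeeze_zero (fun n => Real.rpow_nonneg (norm_nonneg _) _) _ hSn
    intro n
    apply Real.rpow_le_rpow (norm_nonneg _) _ (by positivity)
    rw [← map_pow]
    exact hnorm _
  · intro V hV hinv
    let W : Submodule ℂ F := V.map (U.toLinearEquiv : H →ₗ[ℂ] F)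
    have hWmem : ∀ w, w ∈ W ↔ U.symm w ∈ V := by
      intro w
      constructor
      · rintro ⟨v, hv, rfl⟩
        simpa using hv
      · intro hw
        exact ⟨U.symm w, hw, by simp⟩
    have hWc : IsClosed (W : Set F) := by
      have : (W : Set F) = U.symm ⁻¹' (V : Set H) := by
        ext w; exact hWmem w
      rw [this]
      exact hV.preimage U.symm.continuous
    have hWinv : ∀ A : F →L[ℂ] F, A * S = S * A → ∀ w ∈ W, A w ∈ W := by
      intro A hA w hw
      rw [hWmem] at hw ⊢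
      have hc : Φ A * Φ S = Φ S * Φ A := by rw [← map_mul, ← map_mul, hA]
      have := hinv (Φ A) hc _ hw
      rw [hΦ] at this
      simpa using this
    rcases hS W hWc hWinv with h | h
    · left
      rw [Submodule.eq_bot_iff]
      intro v hv
      have : U v ∈ W := (hWmem _).mpr (by simpa using hv)
      rw [h, Submodule.mem_bot] at this
      simpa using this
    · right
      rw [Submodule.eq_top_iff']
      intro v
      have : U v ∈ W := by rw [h]; trivial
      simpa using (hWmem _).mp this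

lemma countable_of_orthonormal {E ι : Type*} [NormedAddCommGroup E] [InnerProductSpace ℂ E]
    [TopologicalSpace.SeparableSpace E] {v : ι → E} (hv : Orthonormal ℂ v) : Countable ι := by
  apply Pairwise.countable_of_isOpen_disjoint (s := fun i => Metric.ball (v i) (1/2))
  · intro i j hij
    apply Metric.ball_disjoint_ball
    have h1 : ‖v i - v j‖ ^ 2 = 2 := by
      rw [@norm_sub_sq ℂ, hv.1 i, hv.1 j, hv.2 hij]
      norm_num
    rw [dist_eq_norm]
    nlinarith [norm_nonneg (v i - v j)]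
  · intro i; exact Metric.isOpen_ball
  · intro i; exact ⟨v i, Metric.mem_ball_self (by norm_num)⟩

lemma infinite_of_hilbertBasis {E ι : Type*} [NormedAddCommGroup E] [InnerProductSpace ℂ E]
    (b : HilbertBasis ι ℂ E) (hE : ¬ FiniteDimensional ℂ E) : Infinite ι := by
  by_contra hfin
  rw [not_infinite_iff_finite] at hfin
  apply hE
  have hfd : FiniteDimensional ℂ (Submodule.span ℂ (Set.range b)) :=
    FiniteDimensional.span_of_finite ℂ (Set.finite_range b)
  have hcl : IsClosed ((Submodule.span ℂ (Set.range b) : Submodule ℂ E) : Set E) :=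
    Submodule.closed_of_finiteDimensional _
  have h1 := b.dense_span
  rw [hcl.submodule_topologicalClosure_eq] at h1
  exact Module.finite_def.2 (h1 ▸ Submodule.fg_span (Set.finite_range b))

theorem exists_iso [TopologicalSpace.SeparableSpace H] [TopologicalSpace.SeparableSpace F]
    (hH : ¬ FiniteDimensional ℂ H) (hF : ¬ FiniteDimensional ℂ F) : Nonempty (H ≃ₗᵢ[ℂ] F) := by
  obtain ⟨w₁, b₁, -⟩ := exists_hilbertBasis ℂ H
  obtain ⟨w₂, b₂, -⟩ := exists_hilbertBasis ℂ F
  have : Countable w₁ := countable_of_orthonormal b₁.orthonormal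
  have : Countable w₂ := countable_of_orthonormal b₂.orthonormal
  have : Infinite w₁ := infinite_of_hilbertBasis b₁ hH
  have : Infinite w₂ := infinite_of_hilbertBasis b₂ hF
  obtain ⟨e⟩ := nonempty_equiv_of_countable (α := w₁) (β := w₂)
  have ho : Orthonormal ℂ (b₂ ∘ e) := b₂.orthonormal.comp e e.injective
  have hsp : ⊤ ≤ (Submodule.span ℂ (Set.range (b₂ ∘ e))).topologicalClosure := by
    rw [e.surjective.range_comp]
    exact b₂.dense_span.ge
  let b₂' : HilbertBasis w₁ ℂ F := HilbertBasis.mk ho hsp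
  exact ⟨b₁.repr.trans b₂'.repr.symm⟩

end Abstract

instance : IsProbabilityMeasure haarTwoAdic := by
  unfold haarTwoAdic
  constructor
  exact Measure.addHaarMeasure_self

noncomputable def stdBasis : HilbertBasis ℤ ℂ seqHilbert :=
  HilbertBasis.ofRepr (LinearIsometryEquiv.refl ℂ _)

instance : TopologicalSpace.SeparableSpace seqHilbert := by
  rw [← TopologicalSpace.isSeparable_univ_iff]
  have h1 := ((Set.countable_range stdBasis).isSeparable.span (R := ℂ)).closure
  have h2 := stdBasis.dense_span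
  have h3 : closure ((Submodule.span ℂ (Set.range stdBasis) : Submodule ℂ seqHilbert) : Set seqHilbert)
      = Set.univ := by
    rw [← Submodule.topologicalClosure_coe, h2]; rfl
  rwa [h3] at h1

lemma seqHilbert_infinite : ¬ FiniteDimensional ℂ seqHilbert := by
  intro h
  have := stdBasis.orthonormal.linearIndependent
  have hfin := this.finite
  exact not_finite ℤ

instance : Fact ((2 : ℝ≥0∞) ≠ ∞) := ⟨by norm_num⟩

instance : TopologicalSpace.SeparableSpace fibreSpace := by
  have : SecondCountableTopology fibreSpace := inferInstance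
  infer_instance

lemma fibreSpace_infinite : ¬ FiniteDimensional ℂ fibreSpace := by
  intro h
  apply seqHilbert_infinite
  let L : seqHilbert →ₗ[ℂ] fibreSpace := Lp.constₗ 2 haarTwoAdic ℂ
  have hL : Function.Injective L := by
    rw [injective_iff_map_eq_zero]
    intro c hc
    have h1 : ‖Lp.const 2 haarTwoAdic c‖ = ‖c‖ * haarTwoAdic.real Set.univ ^ (1 / (2 : ℝ≥0∞).toReal) :=
      Lp.norm_const' 2 haarTwoAdic c (by norm_num) (by norm_num)
    have h2 : Lp.const 2 haarTwoAdic c = 0 := hc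
    rw [h2, norm_zero] at h1
    simpa using h1.symm
  exact FiniteDimensional.of_injective L hL

lemma nat_bound (n : ℕ) (hn : 1 ≤ n) : n * n ≤ 10 * ((n + 1) ^ 2 / 4) := by
  have e : (n + 1) ^ 2 = n * n + 2 * n + 1 := by ring
  rw [e]
  generalize n * n = m
  omega

theorem good_fibreSpace
    (Sfib : ℤ_[2] → (seqHilbert →L[ℂ] seqHilbert)) (S V : fibreSpace →L[ℂ] fibreSpace)
    (hSfib : ∀ f : fibreSpace, ∀ᵐ x ∂haarTwoAdic,
      (S f : ℤ_[2] → seqHilbert) x = Sfib x ((f : ℤ_[2] → seqHilbert) x))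
    (hS0 : S ≠ 0)
    (hSn : ∀ n : ℕ, 1 ≤ n → ‖S ^ n‖ ≤ Real.exp (-10 * (((n + 1) ^ 2 / 4 : ℕ) : ℝ)))
    (hVS : V * S = S * V)
    (htr : ∀ W : Submodule ℂ fibreSpace, IsClosed (W : Set fibreSpace) →
        (∀ f ∈ W, S f ∈ W) → (∀ f ∈ W, V f ∈ W) →
        (∀ g : ℤ_[2] → ℂ, Measurable g → (∃ C : ℝ, ∀ x, ‖g x‖ ≤ C) →
          ∀ f ∈ W, ∀ f' : fibreSpace,
            (∀ᵐ x ∂haarTwoAdic, (f' : ℤ_[2] → seqHilbert) x = g x • (f : ℤ_[2] → seqHilbert) x) →
              f' ∈ W) →
        W = ⊥ ∨ W = ⊤) : Good fibreSpace := by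
  refine ⟨S, hS0, ?_, ?_⟩
  · have hlim : Tendsto (fun n : ℕ => Real.exp (-(n : ℝ))) atTop (𝓝 0) :=
      Real.tendsto_exp_neg_atTop_nhds_zero.comp tendsto_natCast_atTop_atTop
    apply squeeze_zero' (Eventually.of_forall fun n => Real.rpow_nonneg (norm_nonneg _) _) _ hlim
    filter_upwards [eventually_ge_atTop 1] with n hn
    have hn0 : (0 : ℝ) < n := by exact_mod_cast hn
    have h1 : ‖S ^ n‖ ≤ Real.exp (-(n : ℝ) * n) := by
      refine (hSn n hn).trans (Real.exp_le_exp.mpr ?_)
      have := nat_bound n hn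
      have h2 : ((n * n : ℕ) : ℝ) ≤ ((10 * ((n + 1) ^ 2 / 4) : ℕ) : ℝ) := by exact_mod_cast this
      push_cast at h2 ⊢
      linarith
    calc ‖S ^ n‖ ^ (1 / (n : ℝ)) ≤ (Real.exp (-(n : ℝ) * n)) ^ (1 / (n : ℝ)) :=
          Real.rpow_le_rpow (norm_nonneg _) h1 (by positivity)
      _ = Real.exp (-(n : ℝ)) := by
          rw [← Real.exp_mul]
          congr 1
          field_simp
  · intro W hW hinv
    apply htr W hW (hinv S rfl) (hinv V hVS)
    rintro g hg ⟨C, hC⟩ f hf f' hf'
    have hgmem : MemLp g ∞ haarTwoAdic :=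
      memLp_top_of_bound hg.aestronglyMeasurable C (ae_of_all _ hC)
    let gL : Lp ℂ ∞ haarTwoAdic := hgmem.toLp g
    let B : ℂ →L[ℂ] seqHilbert →L[ℂ] seqHilbert := ContinuousLinearMap.lsmul ℂ ℂ
    let M : fibreSpace →L[ℂ] fibreSpace := B.holderL haarTwoAdic ∞ 2 2 gL
    have hM : ∀ u : fibreSpace, ∀ᵐ x ∂haarTwoAdic,
        (M u : ℤ_[2] → seqHilbert) x = g x • (u : ℤ_[2] → seqHilbert) x := by
      intro u
      have h1 := ContinuousLinearMap.coeFn_holder (r := 2) B gL u
      have h2 := hgmem.coeFn_toLp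
      filter_upwards [h1, h2] with x h1 h2
      have : (M u : ℤ_[2] → seqHilbert) x = (B.holder 2 gL u : ℤ_[2] → seqHilbert) x := rfl
      rw [this, h1]
      show (gL : ℤ_[2] → ℂ) x • (u : ℤ_[2] → seqHilbert) x = g x • (u : ℤ_[2] → seqHilbert) x
      rw [h2]
    have hcomm : M * S = S * M := by
      ext1 u
      apply Lp.ext
      filter_upwards [hM (S u), hSfib u, hSfib (M u), hM u] with x a b c d
      show (M (S u) : ℤ_[2] → seqHilbert) x = (S (M u) : ℤ_[2] → seqHilbert) x
      rw [a, b, c, d, map_smul]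
    have hfM : f' = M f := by
      apply Lp.ext
      filter_upwards [hf', hM f] with x a b
      rw [a, b]
    rw [hfM]
    exact hinv M hcomm f hf

/-- S0148 for every separable infinite-dimensional Hilbert space, from the data of S0150. -/
theorem good_of_data
    (Sfib : ℤ_[2] → (seqHilbert →L[ℂ] seqHilbert)) (S V : fibreSpace →L[ℂ] fibreSpace)
    (hSfib : ∀ f : fibreSpace, ∀ᵐ x ∂haarTwoAdic,
      (S f : ℤ_[2] → seqHilbert) x = Sfib x ((f : ℤ_[2] → seqHilbert) x))
    (hS0 : S ≠ 0)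
    (hSn : ∀ n : ℕ, 1 ≤ n → ‖S ^ n‖ ≤ Real.exp (-10 * (((n + 1) ^ 2 / 4 : ℕ) : ℝ)))
    (hVS : V * S = S * V)
    (htr : ∀ W : Submodule ℂ fibreSpace, IsClosed (W : Set fibreSpace) →
        (∀ f ∈ W, S f ∈ W) → (∀ f ∈ W, V f ∈ W) →
        (∀ g : ℤ_[2] → ℂ, Measurable g → (∃ C : ℝ, ∀ x, ‖g x‖ ≤ C) →
          ∀ f ∈ W, ∀ f' : fibreSpace,
            (∀ᵐ x ∂haarTwoAdic, (f' : ℤ_[2] → seqHilbert) x = g x • (f : ℤ_[2] → seqHilbert) x) →
              f' ∈ W) →
        W = ⊥ ∨ W = ⊤)
    (H : Type*) [NormedAddCommGroup H] [InnerProductSpace ℂ H] [CompleteSpace H]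
    [TopologicalSpace.SeparableSpace H] (hH : ¬ FiniteDimensional ℂ H) : Good H := by
  obtain ⟨U⟩ := exists_iso (H := H) (F := fibreSpace) hH fibreSpace_infinite
  exact Good.transport U (good_fibreSpace Sfib S V hSfib hS0 hSn hVS htr)

end Crest.Agent.S0148Aux
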