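import Mathlib

/-!
helper62: two separable infinite-dimensional complex Hilbert spaces are isometrically isomorphic.
(Part of the reduction S0150 ⇒ S0148.)
-/

namespace Crest.Agent.S0148Aux

open Filter Topology

theorem countable_of_orthonormal62 {E : Type*} [NormedAddCommGroup E] [InnerProductSpace ℂ E]
    [TopologicalSpace.SeparableSpace E] {ι : Type*} {v : ι → E}
    (hv : Orthonormal ℂ v) : Countable ι := by
  apply Pairwise.countable_of_isOpen_disjoint (s := fun i => Metric.ball (v i) (1/2))
  · intro i j hij
    apply Metric.ball_disjoint_ball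
    have h2 : ‖v i - v j‖ ^ 2 = 2 := by
      rw [@norm_sub_sq ℂ]
      simp [hv.1 i, hv.1 j, hv.2 hij]
      norm_num
    rw [dist_eq_norm]
    nlinarith [norm_nonneg (v i - v j)]
  · intro i; exact Metric.isOpen_ball
  · intro i; exact ⟨v i, Metric.mem_ball_self (by norm_num)⟩

theorem infinite_of_hilbertBasis62 {E : Type*} [NormedAddCommGroup E] [InnerProductSpace ℂ E]
    [CompleteSpace E] {ι : Type*} (b : HilbertBasis ι ℂ E) (h : ¬ FiniteDimensional ℂ E) :
    Infinite ι := by
  by_contra hfin
  rw [not_infinite_iff_finite] at hfin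
  apply h
  have hs : (Submodule.span ℂ (Set.range b)).topologicalClosure = ⊤ := b.dense_span
  haveI hfd : FiniteDimensional ℂ (Submodule.span ℂ (Set.range b)) :=
    FiniteDimensional.span_of_finite ℂ (Set.finite_range b)
  have hc : IsClosed ((Submodule.span ℂ (Set.range b)) : Set E) :=
    Submodule.closed_of_finiteDimensional _
  rw [hc.submodule_topologicalClosure_eq] at hs
  exact ⟨by rw [← hs]; exact Submodule.fg_span (Set.finite_range b)⟩

theorem exists_unitary62 {E F : Type*} [NormedAddCommGroup E] [InnerProductSpace ℂ E]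
    [CompleteSpace E] [TopologicalSpace.SeparableSpace E]
    [NormedAddCommGroup F] [InnerProductSpace ℂ F]
    [CompleteSpace F] [TopologicalSpace.SeparableSpace F]
    (hE : ¬ FiniteDimensional ℂ E) (hF : ¬ FiniteDimensional ℂ F) :
    Nonempty (F ≃ₗᵢ[ℂ] E) := by
  obtain ⟨w, b, -⟩ := exists_hilbertBasis ℂ E
  obtain ⟨w', b', -⟩ := exists_hilbertBasis ℂ F
  haveI := countable_of_orthonormal62 b.orthonormal
  haveI := countable_of_orthonormal62 b'.orthonormal
  haveI := infinite_of_hilbertBasis62 b hE
  haveI := infinite_of_hilbertBasis62 b' hF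
  obtain ⟨d⟩ := nonempty_denumerable w
  obtain ⟨d'⟩ := nonempty_denumerable w'
  let e : w ≃ w' := Denumerable.equiv₂ w w'
  let c : HilbertBasis w ℂ F := HilbertBasis.mk (b'.orthonormal.comp e e.injective) (by
    rw [Set.range_comp, e.surjective.range_eq, Set.image_univ]
    exact b'.dense_span.ge)
  exact ⟨c.repr.trans b.repr.symm⟩

end Crest.Agent.S0148Aux
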