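import Mathlib
import Crest.Prelude.Def_TwoAdicShift
import Crest.Agent.S0148Aux.Unitary62

/-!
helper62: `fibreSpace = L²(ℤ₂; ℓ²(ℤ))` is a separable infinite-dimensional Hilbert space, and bounded
measurable scalar multipliers are bounded operators on it.  (Part of the reduction S0150 ⇒ S0148.)
-/

namespace Crest.Agent.S0148Aux

open Filter Topology MeasureTheory Crest.AnalysisR.TwoAdic
open scoped ENNReal
attribute [local instance] Crest.AnalysisR.TwoAdic.borelTwoAdic
  Crest.AnalysisR.TwoAdic.borelSpace_twoAdic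

noncomputable def stdBasis62 : HilbertBasis ℤ ℂ seqHilbert :=
  HilbertBasis.ofRepr (LinearIsometryEquiv.refl ℂ _)

instance separable_seqHilbert62 : TopologicalSpace.SeparableSpace seqHilbert := by
  have h := stdBasis62.dense_span
  have hsep : TopologicalSpace.IsSeparable
      ((Submodule.span ℂ (Set.range stdBasis62)).topologicalClosure : Set seqHilbert) := by
    rw [Submodule.topologicalClosure_coe]
    exact ((Set.countable_range _).isSeparable.span (R := ℂ)).closure
  rw [h] at hsep
  exact TopologicalSpace.isSeparable_univ_iff.1 (by simpa using hsep)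

theorem not_finiteDimensional_seqHilbert62 : ¬ FiniteDimensional ℂ seqHilbert := by
  intro h
  have := stdBasis62.orthonormal.linearIndependent.finite
  exact not_finite ℤ

instance isFiniteMeasure_haar62 : IsFiniteMeasure haarTwoAdic := by
  unfold haarTwoAdic; infer_instance

theorem haar_univ62 : haarTwoAdic Set.univ = 1 := by
  have := MeasureTheory.Measure.addHaarMeasure_self (K₀ := (⊤ : TopologicalSpace.PositiveCompacts ℤ_[2]))
  simpa [haarTwoAdic] using this

instance separable_fibreSpace62 : TopologicalSpace.SeparableSpace fibreSpace := by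
  haveI : Fact ((2 : ℝ≥0∞) ≠ ∞) := ⟨by norm_num⟩
  haveI : SecondCountableTopology fibreSpace := inferInstance
  infer_instance

theorem not_finiteDimensional_fibreSpace62 : ¬ FiniteDimensional ℂ fibreSpace := by
  intro h
  apply not_finiteDimensional_seqHilbert62
  refine FiniteDimensional.of_injective (Lp.constₗ 2 haarTwoAdic ℂ : seqHilbert →ₗ[ℂ] fibreSpace) ?_
  rw [injective_iff_map_eq_zero]
  intro c hc
  have h1 : ‖Lp.const 2 haarTwoAdic c‖ = ‖c‖ * haarTwoAdic.real Set.univ ^ (1 / (2 : ℝ≥0∞).toReal) :=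
    Lp.norm_const' 2 haarTwoAdic c (by norm_num) (by norm_num)
  have h2 : Lp.const 2 haarTwoAdic c = 0 := hc
  rw [h2, norm_zero, Measure.real, haar_univ62] at h1
  simpa using h1.symm

/-- bounded measurable multipliers as bounded operators. -/
theorem exists_mulOp62 (g : ℤ_[2] → ℂ) (hg : Measurable g) (C : ℝ) (hC : ∀ x, ‖g x‖ ≤ C) :
    ∃ M : fibreSpace →L[ℂ] fibreSpace, ∀ f : fibreSpace,
      (M f : ℤ_[2] → seqHilbert) =ᵐ[haarTwoAdic] fun x => g x • (f : ℤ_[2] → seqHilbert) x := by
  have hmem : ∀ f : fibreSpace,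
      MemLp (fun x => g x • (f : ℤ_[2] → seqHilbert) x) 2 haarTwoAdic := by
    intro f
    refine MemLp.of_le_mul (c := C) (Lp.memLp f)
      (hg.aestronglyMeasurable.smul (Lp.aestronglyMeasurable f)) ?_
    filter_upwards with x
    rw [norm_smul]
    exact mul_le_mul_of_nonneg_right (hC x) (norm_nonneg _)
  let L : fibreSpace →ₗ[ℂ] fibreSpace :=
    { toFun := fun f => (hmem f).toLp _
      map_add' := by
        intro f₁ f₂
        apply Lp.ext
        filter_upwards [(hmem (f₁ + f₂)).coeFn_toLp, (hmem f₁).coeFn_toLp, (hmem f₂).coeFn_toLp,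
          Lp.coeFn_add f₁ f₂, Lp.coeFn_add ((hmem f₁).toLp _) ((hmem f₂).toLp _)]
          with x h1 h2 h3 h4 h5
        rw [h1, h5, Pi.add_apply, h2, h3, h4, Pi.add_apply, smul_add]
      map_smul' := by
        intro a f
        apply Lp.ext
        filter_upwards [(hmem (a • f)).coeFn_toLp, (hmem f).coeFn_toLp,
          Lp.coeFn_smul a f, Lp.coeFn_smul a ((hmem f).toLp _)]
          with x h1 h2 h3 h4
        rw [h1, RingHom.id_apply, h4, Pi.smul_apply, h2, h3, Pi.smul_apply, smul_comm] }
  refine ⟨L.mkContinuous C ?_, fun f => (hmem f).coeFn_toLp⟩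
  intro f
  apply Lp.norm_le_mul_norm_of_ae_le_mul
  filter_upwards [(hmem f).coeFn_toLp] with x h1
  have : (L f : ℤ_[2] → seqHilbert) x = g x • (f : ℤ_[2] → seqHilbert) x := h1
  rw [this, norm_smul]
  exact mul_le_mul_of_nonneg_right (hC x) (norm_nonneg _)

end Crest.Agent.S0148Aux
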